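import Mathlib

/-!
# P097 / case [c] (helper282): explicit discs of (W) in straight coordinates

Closed half disc `‖z‖ ≤ ρ₁`, `0 ≤ Im z`.  The profile is `Re (X / log X)`, `X = e² - i z / r`.
No label is special, nothing is solved.
-/

set_option linter.all false

open scoped ComplexConjugate Topology
open Filter Metric Set Complex

namespace Vale.Agent.P097.H282

/-- the constant `e²` -/
noncomputable def Ce : ℝ := Real.exp 2

theorem Ce_pos : 0 < Ce := Real.exp_pos _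

theorem one_lt_Ce : 1 < Ce := by
  have := Real.add_one_le_exp 2
  unfold Ce
  linarith

/-- argument of the logarithm -/
noncomputable def Xe (r : ℝ) (z : ℂ) : ℂ := (Ce : ℂ) - I * (z / r)

/-- the profile function -/
noncomputable def gp (ε r : ℝ) (z : ℂ) : ℂ := (ε * r : ℝ) * (Xe r z / Complex.log (Xe r z))

/-- the profile -/
noncomputable def pf (ε r : ℝ) (z : ℂ) : ℝ := ε * (r + ‖z‖) / (4 * (2 + Real.log (1 + ‖z‖ / r)) ^ 2)

theorem Xe_re {r : ℝ} (z : ℂ) : (Xe r z).re = Ce + z.im / r := by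
  unfold Xe
  rw [sub_re, ofReal_re, mul_re, I_re, I_im, div_ofReal_re, div_ofReal_im]
  ring

theorem Xe_im {r : ℝ} (z : ℂ) : (Xe r z).im = -(z.re / r) := by
  unfold Xe
  rw [sub_im, ofReal_im, mul_im, I_re, I_im, div_ofReal_re, div_ofReal_im]
  ring

theorem Xe_re_gt {r : ℝ} (hr : 0 < r) {z : ℂ} (hz : -(Ce - 1) * r < z.im) : 1 < (Xe r z).re := by
  rw [Xe_re]
  have : -(Ce - 1) < z.im / r := by rw [lt_div_iff₀ hr]; exact hz
  linarith

theorem Xe_norm_gt {r : ℝ} (hr : 0 < r) {z : ℂ} (hz : -(Ce - 1) * r < z.im) : 1 < ‖Xe r z‖ :=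
  (Xe_re_gt hr hz).trans_le ((le_abs_self _).trans (Complex.abs_re_le_norm _))

theorem log_Xe_ne {r : ℝ} (hr : 0 < r) {z : ℂ} (hz : -(Ce - 1) * r < z.im) :
    Complex.log (Xe r z) ≠ 0 := by
  intro h
  have h1 := congrArg Complex.re h
  rw [Complex.log_re, zero_re] at h1
  have h2 := Real.log_pos (Xe_norm_gt hr hz)
  linarith

theorem gp_diff {ε r : ℝ} (hr : 0 < r) : DifferentiableOn ℂ (gp ε r) {z | -(Ce - 1) * r < z.im} := by
  intro z hz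
  have h0 : Xe r z ∈ slitPlane := by
    rw [mem_slitPlane_iff]
    left
    have := Xe_re_gt hr hz
    linarith
  have h1 : DifferentiableAt ℂ (Xe r) z := by
    unfold Xe
    exact (differentiableAt_const _).sub ((differentiableAt_id.div_const _).const_mul _)
  exact (((h1.div (h1.clog h0) (log_Xe_ne hr hz)).const_mul _)).differentiableWithinAt

/-- lower and upper bound of the real part and norm of `X / log X` -/
theorem quot_bound {X : ℂ} (h1 : 0 ≤ X.re) (h2 : Real.exp 2 ≤ ‖X‖) :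
    ‖X‖ / ((Real.log ‖X‖) ^ 2 + 3) ≤ (X / Complex.log X).re ∧
      ‖X / Complex.log X‖ ≤ ‖X‖ / 2 := by
  have hX0 : 0 < ‖X‖ := (Real.exp_pos 2).trans_le h2
  have hXne : X ≠ 0 := norm_pos_iff.1 hX0
  set L := Real.log ‖X‖ with hL
  have hL2 : 2 ≤ L := by
    rw [hL, ← Real.log_exp 2]
    exact Real.log_le_log (Real.exp_pos 2) h2
  set ψ := Complex.arg X with hψ
  have hψ2 : |ψ| ≤ Real.pi / 2 := Complex.abs_arg_le_pi_div_two_iff.2 h1
  have hlr : (Complex.log X).re = L := Complex.log_re X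
  have hli : (Complex.log X).im = ψ := Complex.log_im X
  have hns : Complex.normSq (Complex.log X) = L ^ 2 + ψ ^ 2 := by
    rw [Complex.normSq_apply, hlr, hli]; ring
  have hnp : 0 < L ^ 2 + ψ ^ 2 := by positivity
  have hψsq : ψ ^ 2 ≤ 3 := by
    have h3 : ψ ^ 2 ≤ (Real.pi / 2) ^ 2 := by
      rw [← sq_abs ψ]
      exact pow_le_pow_left₀ (abs_nonneg _) hψ2 2
    have h4 : Real.pi < 3.15 := Real.pi_lt_d2
    have h5 : 0 < Real.pi := Real.pi_pos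
    nlinarith
  constructor
  · have hre : (X / Complex.log X).re = (X.re * L + X.im * ψ) / (L ^ 2 + ψ ^ 2) := by
      rw [Complex.div_re, hns, hlr, hli]
      ring
    rw [hre]
    -- `X.im = ‖X‖ sin ψ`
    have him : X.im = ‖X‖ * Real.sin ψ := by
      rw [hψ, Complex.sin_arg]
      field_simp
    have hnum : ‖X‖ ≤ X.re * L + X.im * ψ := by
      have e1 : X.im ^ 2 / ‖X‖ ≤ X.im * ψ := by
        rw [him]
        have e2 : (‖X‖ * Real.sin ψ) ^ 2 / ‖X‖ = ‖X‖ * (Real.sin ψ * Real.sin ψ) := by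
          field_simp
        rw [e2, mul_assoc]
        apply mul_le_mul_of_nonneg_left _ hX0.le
        rcases le_total 0 ψ with h | h
        · have h3 := Real.sin_le h
          have h4 : 0 ≤ Real.sin ψ := Real.sin_nonneg_of_nonneg_of_le_pi h (by
            have := (abs_le.1 hψ2).2
            linarith [Real.pi_pos])
          exact mul_le_mul_of_nonneg_left h3 h4
        · have h3 : Real.sin (-ψ) ≤ -ψ := Real.sin_le (by linarith)
          rw [Real.sin_neg] at h3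
          have h4 : Real.sin ψ ≤ 0 := Real.sin_nonpos_of_nonpos_of_neg_pi_le h (by
            have := (abs_le.1 hψ2).1
            linarith [Real.pi_pos])
          nlinarith
      have e3 : X.re ^ 2 / ‖X‖ ≤ X.re * L := by
        rw [div_le_iff₀ hX0]
        have e4 : X.re ≤ ‖X‖ := (le_abs_self _).trans (Complex.abs_re_le_norm _)
        have e5 : X.re * X.re ≤ X.re * ‖X‖ := mul_le_mul_of_nonneg_left e4 h1
        have e6 : X.re * ‖X‖ * 1 ≤ X.re * ‖X‖ * L :=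
          mul_le_mul_of_nonneg_left (by linarith) (by positivity)
        nlinarith
      have e7 : X.re ^ 2 / ‖X‖ + X.im ^ 2 / ‖X‖ = ‖X‖ := by
        rw [← add_div, div_eq_iff hX0.ne']
        have := Complex.sq_norm X
        rw [Complex.normSq_apply] at this
        nlinarith
      linarith
    calc ‖X‖ / (L ^ 2 + 3) ≤ ‖X‖ / (L ^ 2 + ψ ^ 2) :=
          div_le_div_of_nonneg_left hX0.le hnp (by linarith)
      _ ≤ (X.re * L + X.im * ψ) / (L ^ 2 + ψ ^ 2) := by gcongr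
  · rw [norm_div]
    have h3 : 2 ≤ ‖Complex.log X‖ := by
      have := (le_abs_self _).trans (Complex.abs_re_le_norm (Complex.log X))
      rw [hlr] at this
      linarith
    exact div_le_div_of_nonneg_left hX0.le (by norm_num) h3

theorem Xe_norm {r : ℝ} (hr : 0 < r) {z : ℂ} (hz : 0 ≤ z.im) :
    Real.exp 2 ≤ ‖Xe r z‖ ∧ (r + ‖z‖) / 2 ≤ r * ‖Xe r z‖ ∧ ‖Xe r z‖ ≤ Ce * (1 + ‖z‖ / r) := by
  have hzr : 0 ≤ z.im / r := by positivity
  have h0 : 0 ≤ ‖z‖ / r := by positivity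
  have hsq : ‖Xe r z‖ ^ 2 = (Ce + z.im / r) ^ 2 + (z.re / r) ^ 2 := by
    rw [Complex.sq_norm, Complex.normSq_apply, Xe_re, Xe_im]; ring
  have hzsq : (‖z‖ / r) ^ 2 = (z.im / r) ^ 2 + (z.re / r) ^ 2 := by
    rw [div_pow, Complex.sq_norm, Complex.normSq_apply]
    field_simp
    ring
  have hC := one_lt_Ce
  refine ⟨?_, ?_, ?_⟩
  · have h1 : Ce ≤ (Xe r z).re := by rw [Xe_re]; linarith
    exact h1.trans ((le_abs_self _).trans (Complex.abs_re_le_norm _))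
  · have h1 : ((1 + ‖z‖ / r) / 2) ^ 2 ≤ ‖Xe r z‖ ^ 2 := by
      rw [hsq]
      nlinarith [sq_nonneg (1 - ‖z‖ / r), mul_nonneg (by linarith : (0:ℝ) ≤ Ce) hzr]
    have h2 : (1 + ‖z‖ / r) / 2 ≤ ‖Xe r z‖ :=
      le_of_sq_le_sq h1 (norm_nonneg _)
    have h3 := mul_le_mul_of_nonneg_left h2 hr.le
    have h4 : r * ((1 + ‖z‖ / r) / 2) = (r + ‖z‖) / 2 := by field_simp
    linarith
  · unfold Xe
    refine (norm_sub_le _ _).trans ?_
    rw [norm_mul, Complex.norm_I, one_mul, norm_div, Complex.norm_real, Complex.norm_real,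
      Real.norm_eq_abs, Real.norm_eq_abs, abs_of_pos Ce_pos, abs_of_pos hr]
    nlinarith

/-- bounds of the profile function -/
theorem gp_bound {ε r : ℝ} (hε : 0 < ε) (hr : 0 < r) {z : ℂ} (hz : 0 ≤ z.im) :
    pf ε r z / 2 ≤ (gp ε r z).re ∧ 0 < pf ε r z ∧ ‖gp ε r z‖ ≤ ε * Ce * (r + ‖z‖) := by
  obtain ⟨h1, h2, h3⟩ := Xe_norm hr hz
  have hXr : 0 ≤ (Xe r z).re := by
    rw [Xe_re]
    have := Ce_pos
    positivity
  obtain ⟨h4, h5⟩ := quot_bound hXr h1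
  have hX0 : 0 < ‖Xe r z‖ := (Real.exp_pos 2).trans_le h1
  have h0 : 0 ≤ ‖z‖ / r := by positivity
  have hlog : Real.log ‖Xe r z‖ ≤ 2 + Real.log (1 + ‖z‖ / r) := by
    have e1 := Real.log_le_log hX0 h3
    rw [Real.log_mul Ce_pos.ne' (by positivity)] at e1
    have e2 : Real.log Ce = 2 := Real.log_exp 2
    linarith
  have hlog2 : 2 ≤ Real.log ‖Xe r z‖ := by
    rw [← Real.log_exp 2]
    exact Real.log_le_log (Real.exp_pos 2) h1
  set T := 2 + Real.log (1 + ‖z‖ / r) with hT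
  have hT2 : 2 ≤ T := hlog2.trans hlog
  have hpf : pf ε r z = ε * (r + ‖z‖) / (4 * T ^ 2) := rfl
  have hpf0 : 0 < pf ε r z := by
    rw [hpf]
    have := norm_nonneg z
    positivity
  refine ⟨?_, hpf0, ?_⟩
  · have e1 : (gp ε r z).re = (ε * r) * (Xe r z / Complex.log (Xe r z)).re := by
      unfold gp
      rw [Complex.re_ofReal_mul]
    rw [e1, hpf]
    have e2 : ‖Xe r z‖ / (2 * T ^ 2) ≤ ‖Xe r z‖ / ((Real.log ‖Xe r z‖) ^ 2 + 3) := by
      apply div_le_div_of_nonneg_left hX0.le (by positivity)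
      have e3 : (Real.log ‖Xe r z‖) ^ 2 ≤ T ^ 2 := pow_le_pow_left₀ (by linarith) hlog 2
      nlinarith
    have e4 : (ε * r) * (‖Xe r z‖ / (2 * T ^ 2)) ≤
        (ε * r) * (Xe r z / Complex.log (Xe r z)).re :=
      mul_le_mul_of_nonneg_left (e2.trans h4) (by positivity)
    refine le_trans ?_ e4
    have e5 : ε * r * (‖Xe r z‖ / (2 * T ^ 2)) = ε * (r * ‖Xe r z‖) / (2 * T ^ 2) := by ring
    rw [e5]
    have e6 : ε * (r + ‖z‖) / (4 * T ^ 2) / 2 = ε * ((r + ‖z‖) / 4) / (2 * T ^ 2) := by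
      field_simp
    rw [e6]
    gcongr
    have := norm_nonneg z
    linarith
  · unfold gp
    rw [norm_mul, Complex.norm_real, Real.norm_eq_abs, abs_of_pos (by positivity)]
    have e1 : ε * r * ‖Xe r z / Complex.log (Xe r z)‖ ≤ ε * r * (‖Xe r z‖ / 2) :=
      mul_le_mul_of_nonneg_left h5 (by positivity)
    refine e1.trans ?_
    have e2 : ε * r * (‖Xe r z‖ / 2) ≤ ε * r * (Ce * (1 + ‖z‖ / r)) := by
      apply mul_le_mul_of_nonneg_left _ (by positivity)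
      linarith
    refine e2.trans (le_of_eq ?_)
    field_simp

/-- constants of the discs -/
structure Cst (s X q μ lam κ₀ ε τ σ' : ℝ) : Prop where
  s0 : 0 ≤ s
  X0 : 0 < X
  q0 : 0 < q
  μ0 : 0 < μ
  κ0 : 0 < κ₀
  ε0 : 0 < ε
  τ0 : 0 < τ
  l0 : 1 / 2 ≤ lam
  l1 : lam ≤ 1
  cW : ε * Ce * (1 + X) ≤ (1 - lam) * q
  cS : ε * Ce * (1 + X) ≤ (μ * lam - s) * q
  cσ : μ + κ₀ ≤ σ'
  cτ : (μ + 2 * κ₀) * τ ≤ κ₀ / 2
  sμ : s ≤ μ

noncomputable def dS (μ κ ε r η : ℝ) (s₁ z : ℂ) : ℂ :=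
  s₁ + μ * (z - η * I) - I * (gp ε r z - gp ε r (η * I)) - I * (κ * (z ^ 2 + (η : ℂ) ^ 2))

noncomputable def dW (ε r η : ℝ) (w₁ z : ℂ) : ℂ :=
  w₁ + (z - η * I) + I * (gp ε r z - gp ε r (η * I))

theorem dW_im (ε r η : ℝ) (w₁ z : ℂ) : (dW ε r η w₁ z).im =
    w₁.im + (z.im - η) + ((gp ε r z).re - (gp ε r (η * I)).re) := by
  have hηim : ((η : ℂ) * I).im = η := by simp
  unfold dW
  rw [add_im, add_im, sub_im, hηim, Complex.I_mul_im, sub_re]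

theorem dS_im (μ κ ε r η : ℝ) (s₁ z : ℂ) : (dS μ κ ε r η s₁ z).im =
    s₁.im + μ * (z.im - η) - ((gp ε r z).re - (gp ε r (η * I)).re) -
      κ * (z.re ^ 2 - z.im ^ 2 + η ^ 2) := by
  have hηim : ((η : ℂ) * I).im = η := by simp
  have e1 : (z ^ 2 + (η : ℂ) ^ 2).re = z.re ^ 2 - z.im ^ 2 + η ^ 2 := by
    rw [add_re, sq, sq, mul_re, mul_re, ofReal_re, ofReal_im]
    ring
  unfold dS
  rw [sub_im, sub_im, add_im, Complex.im_ofReal_mul, sub_im, hηim, Complex.I_mul_im, sub_re,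
    Complex.I_mul_im, Complex.re_ofReal_mul, e1]

section
variable {s X q μ lam κ₀ ε τ σ' r : ℝ} {w₁ s₁ : ℂ}

theorem gη_bound (K : Cst s X q μ lam κ₀ ε τ σ') (hr : 0 < r) {η : ℝ} (hη0 : 0 < η)
    (hη : η ≤ X * r) : ‖gp ε r (η * I)‖ ≤ ε * Ce * (1 + X) * r := by
  have hηim : ((η : ℂ) * I).im = η := by simp
  have hηn : ‖(η : ℂ) * I‖ = η := by
    rw [norm_mul, Complex.norm_I, mul_one, Complex.norm_real, Real.norm_eq_abs, abs_of_pos hη0]
  obtain ⟨gη1, gη2, gη3⟩ := gp_bound K.ε0 hr (z := (η : ℂ) * I) (by rw [hηim]; exact hη0.le)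
  rw [hηn] at gη3
  refine gη3.trans ?_
  have e1 : r + η ≤ (1 + X) * r := by linarith
  have h2 := Ce_pos
  have h3 := K.ε0
  have e2 : ε * Ce * (r + η) ≤ ε * Ce * ((1 + X) * r) :=
    mul_le_mul_of_nonneg_left e1 (by positivity)
  have e3 : ε * Ce * ((1 + X) * r) = ε * Ce * (1 + X) * r := by ring
  linarith

theorem dW_low (K : Cst s X q μ lam κ₀ ε τ σ') (hr : 0 < r) (hw1 : q * r ≤ w₁.im)
    (hw2 : w₁.im ≤ X * r) {z : ℂ} :
    z.im + (gp ε r z).re ≤ (dW ε r (lam * w₁.im) w₁ z).im := by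
  have hqr : 0 < q * r := mul_pos K.q0 hr
  have hw0 : 0 < w₁.im := by linarith
  have hη0 : 0 < lam * w₁.im := mul_pos (by linarith [K.l0]) hw0
  have hη : lam * w₁.im ≤ X * r := by
    have := mul_le_mul_of_nonneg_right K.l1 hw0.le
    linarith
  have h1 := (le_abs_self _).trans ((Complex.abs_re_le_norm _).trans (gη_bound K hr hη0 hη))
  have h2 := mul_le_mul_of_nonneg_right K.cW hr.le
  have h3 : (1 - lam) * q * r ≤ (1 - lam) * w₁.im := by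
    rw [mul_assoc]
    exact mul_le_mul_of_nonneg_left hw1 (by linarith [K.l1])
  rw [dW_im]
  linarith

theorem dS_up (K : Cst s X q μ lam κ₀ ε τ σ') (hr : 0 < r) (hw1 : q * r ≤ w₁.im)
    (hw2 : w₁.im ≤ X * r) (hs3 : s₁.im ≤ s * w₁.im) {κ : ℝ} (hκ : 0 < κ) {z : ℂ} :
    (dS μ κ ε r (lam * w₁.im) s₁ z).im ≤
      μ * z.im - (gp ε r z).re - κ * z.re ^ 2 + κ * z.im ^ 2 := by
  have hqr : 0 < q * r := mul_pos K.q0 hr
  have hw0 : 0 < w₁.im := by linarith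
  have hη0 : 0 < lam * w₁.im := mul_pos (by linarith [K.l0]) hw0
  have hη : lam * w₁.im ≤ X * r := by
    have := mul_le_mul_of_nonneg_right K.l1 hw0.le
    linarith
  have h1 := (le_abs_self _).trans ((Complex.abs_re_le_norm _).trans (gη_bound K hr hη0 hη))
  have h2 := mul_le_mul_of_nonneg_right K.cS hr.le
  have hpos : 0 ≤ μ * lam - s := by
    have h3 := Ce_pos
    have h4 : 0 < ε * Ce * (1 + X) := by
      have := K.ε0
      have := K.X0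
      positivity
    have h5 : 0 < (μ * lam - s) * q := h4.trans_le K.cS
    exact (pos_of_mul_pos_left h5 K.q0.le).le
  have h3 : (μ * lam - s) * q * r ≤ (μ * lam - s) * w₁.im := by
    rw [mul_assoc]
    exact mul_le_mul_of_nonneg_left hw1 hpos
  have h4 : 0 ≤ κ * (lam * w₁.im) ^ 2 := by positivity
  have h5 : (μ * lam - s) * w₁.im = μ * (lam * w₁.im) - s * w₁.im := by ring
  rw [dS_im]
  have h6 : μ * (z.im - lam * w₁.im) = μ * z.im - μ * (lam * w₁.im) := by ring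
  have h7 : κ * (z.re ^ 2 - z.im ^ 2 + (lam * w₁.im) ^ 2) =
    κ * z.re ^ 2 - κ * z.im ^ 2 + κ * (lam * w₁.im) ^ 2 := by ring
  rw [h6, h7]
  linarith

theorem sq_small {ρ₁ κ : ℝ} (hκ : 0 ≤ κ) (hκρ : κ * ρ₁ = κ₀) {z : ℂ} (h1 : 0 ≤ z.im)
    (h2 : ‖z‖ ≤ ρ₁) : κ * z.im ^ 2 ≤ κ₀ * z.im := by
  have e1 : z.im ≤ ρ₁ := (le_abs_self _).trans ((Complex.abs_im_le_norm z).trans h2)
  have e2 : κ * z.im ^ 2 = (κ * z.im) * z.im := by ring
  rw [e2]
  apply mul_le_mul_of_nonneg_right _ h1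
  rw [← hκρ]
  exact mul_le_mul_of_nonneg_left e1 hκ

theorem arc_est (K : Cst s X q μ lam κ₀ ε τ σ') {ρ₁ κ : ℝ} (hρ : 0 < ρ₁) (hκ : 0 ≤ κ)
    (hκρ : κ * ρ₁ = κ₀) {z : ℂ} (h1 : 0 ≤ z.im) (h2 : ‖z‖ = ρ₁) (h3 : z.im ≤ τ * ρ₁) :
    μ * z.im - κ * z.re ^ 2 + κ * z.im ^ 2 ≤ -(κ₀ * ρ₁ / 2) := by
  have e1 : z.re ^ 2 = ρ₁ ^ 2 - z.im ^ 2 := by
    rw [← h2, Complex.sq_norm, Complex.normSq_apply]; ring
  have e2 := sq_small hκ hκρ h1 h2.le
  have e3 : κ * z.re ^ 2 = κ₀ * ρ₁ - κ * z.im ^ 2 := by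
    rw [e1, mul_sub, ← hκρ]; ring
  have e4 : (μ + 2 * κ₀) * z.im ≤ (μ + 2 * κ₀) * (τ * ρ₁) :=
    mul_le_mul_of_nonneg_left h3 (by linarith [K.μ0, K.κ0])
  have e7 : (μ + 2 * κ₀) * τ * ρ₁ ≤ κ₀ / 2 * ρ₁ := mul_le_mul_of_nonneg_right K.cτ hρ.le
  rw [e3]
  linarith

end

/-- the big constant -/
noncomputable def Cb (s X μ κ₀ ε : ℝ) : ℝ :=
  (2 + s) * X + μ * (1 + X) + 2 * (ε * Ce * (1 + X)) + κ₀ * (1 + X) + (2 * X + 1 + X) + 2 / κ₀

section
variable {s X q μ lam κ₀ ε τ σ' r : ℝ} {w₁ s₁ : ℂ}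

theorem dS_norm (K : Cst s X q μ lam κ₀ ε τ σ') (hr : 0 < r) (hw1 : q * r ≤ w₁.im)
    (hw2 : w₁.im ≤ X * r) {y ρ₁ κ : ℝ} (hs1 : |s₁.re - y| ≤ X * r) (hs2 : -(X * r) ≤ s₁.im)
    (hs3 : s₁.im ≤ s * w₁.im) (hκ : 0 < κ) (hκρ : κ * ρ₁ = κ₀) (hρ : X * r < ρ₁)
    {z : ℂ} (hz : 0 ≤ z.im) (hzρ : ‖z‖ ≤ ρ₁) :
    ‖dS μ κ ε r (lam * w₁.im) s₁ z - y‖ ≤ Cb s X μ κ₀ ε * (r + ‖z‖) := by
  have hs0 := K.s0
  have hX0 := K.X0
  have hμ0 := K.μ0
  have hκ0 := K.κ0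
  have hε0 := K.ε0
  have hCe := Ce_pos
  have hqr : 0 < q * r := mul_pos K.q0 hr
  have hw0 : 0 < w₁.im := by linarith
  have hη0 : 0 < lam * w₁.im := mul_pos (by linarith [K.l0]) hw0
  have hη : lam * w₁.im ≤ X * r := by
    have := mul_le_mul_of_nonneg_right K.l1 hw0.le
    linarith
  set η := lam * w₁.im with hηd
  have hηn : ‖(η : ℂ) * I‖ = η := by
    rw [norm_mul, Complex.norm_I, mul_one, Complex.norm_real, Real.norm_eq_abs, abs_of_pos hη0]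
  obtain ⟨g1, g2, g3⟩ := gp_bound hε0 hr hz
  have gη := gη_bound K hr hη0 hη
  have hz0 := norm_nonneg z
  have e1 : dS μ κ ε r η s₁ z - y = (s₁ - y) + μ * (z - η * I) -
      I * (gp ε r z - gp ε r (η * I)) - I * (κ * (z ^ 2 + (η : ℂ) ^ 2)) := by
    unfold dS; ring
  rw [e1]
  have a1 : ‖s₁ - y‖ ≤ (2 + s) * X * r := by
    have h1 := Complex.norm_le_abs_re_add_abs_im (s₁ - y)
    simp only [sub_re, ofReal_re, sub_im, ofReal_im, sub_zero] at h1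
    have h2 : |s₁.im| ≤ X * r + s * (X * r) := by
      rw [abs_le]
      have h3 : s * w₁.im ≤ s * (X * r) := mul_le_mul_of_nonneg_left hw2 hs0
      have h4 : 0 ≤ s * (X * r) := by positivity
      have h5 : 0 ≤ X * r := by positivity
      constructor <;> linarith
    have h6 : (2 + s) * X * r = X * r + (X * r + s * (X * r)) := by ring
    linarith
  have a2 : ‖(μ : ℂ) * (z - η * I)‖ ≤ μ * (‖z‖ + X * r) := by
    rw [norm_mul, Complex.norm_real, Real.norm_eq_abs, abs_of_pos hμ0]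
    apply mul_le_mul_of_nonneg_left _ hμ0.le
    refine (norm_sub_le _ _).trans ?_
    rw [hηn]
    linarith
  have a3 : ‖I * (gp ε r z - gp ε r (η * I))‖ ≤ ε * Ce * (r + ‖z‖) + ε * Ce * (1 + X) * r := by
    rw [norm_mul, Complex.norm_I, one_mul]
    exact (norm_sub_le _ _).trans (add_le_add g3 gη)
  have a4 : ‖I * ((κ : ℂ) * (z ^ 2 + (η : ℂ) ^ 2))‖ ≤ κ₀ * (‖z‖ + X * r) := by
    rw [norm_mul, Complex.norm_I, one_mul, norm_mul, Complex.norm_real, Real.norm_eq_abs,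
      abs_of_pos hκ]
    have h1 : ‖z ^ 2 + (η : ℂ) ^ 2‖ ≤ ‖z‖ ^ 2 + η ^ 2 := by
      refine (norm_add_le _ _).trans ?_
      rw [norm_pow, norm_pow, Complex.norm_real, Real.norm_eq_abs, sq_abs]
    have hρ0 : 0 < ρ₁ := by
      have : 0 < X * r := by positivity
      linarith
    have h2 : ‖z‖ ^ 2 + η ^ 2 ≤ ρ₁ * (‖z‖ + X * r) := by
      have h3 : ‖z‖ * ‖z‖ ≤ ρ₁ * ‖z‖ := mul_le_mul_of_nonneg_right hzρ hz0
      have h5 : η * η ≤ ρ₁ * (X * r) := mul_le_mul (by linarith) hη hη0.le hρ0.le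
      have h6 : ‖z‖ ^ 2 = ‖z‖ * ‖z‖ := sq _
      have h7 : η ^ 2 = η * η := sq _
      have h8 : ρ₁ * (‖z‖ + X * r) = ρ₁ * ‖z‖ + ρ₁ * (X * r) := by ring
      linarith
    calc κ * ‖z ^ 2 + (η : ℂ) ^ 2‖ ≤ κ * (ρ₁ * (‖z‖ + X * r)) :=
          mul_le_mul_of_nonneg_left (h1.trans h2) hκ.le
      _ = κ₀ * (‖z‖ + X * r) := by rw [← mul_assoc, hκρ]
  have a5 := norm_sub_le ((s₁ - y) + μ * (z - η * I) - I * (gp ε r z - gp ε r (η * I)))
    (I * (κ * (z ^ 2 + (η : ℂ) ^ 2)))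
  have a6 := norm_sub_le ((s₁ - y) + μ * (z - η * I)) (I * (gp ε r z - gp ε r (η * I)))
  have a7 := norm_add_le (s₁ - y : ℂ) (μ * (z - η * I))
  set N := ‖z‖ with hN
  have b1 : (2 + s) * X * r ≤ (2 + s) * X * (r + N) :=
    mul_le_mul_of_nonneg_left (by linarith) (by positivity)
  have b2 : μ * (N + X * r) ≤ μ * (1 + X) * (r + N) := by
    rw [mul_assoc]
    apply mul_le_mul_of_nonneg_left _ hμ0.le
    nlinarith [mul_nonneg hX0.le hz0]
  have b3 : ε * Ce * (r + N) + ε * Ce * (1 + X) * r ≤ 2 * (ε * Ce * (1 + X)) * (r + N) := by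
    have p1 : 0 < ε * Ce := by positivity
    have p2 : ε * Ce * (r + N) ≤ ε * Ce * (1 + X) * (r + N) := by
      apply mul_le_mul_of_nonneg_right _ (by positivity)
      nlinarith
    have p3 : ε * Ce * (1 + X) * r ≤ ε * Ce * (1 + X) * (r + N) :=
      mul_le_mul_of_nonneg_left (by linarith) (by positivity)
    linarith
  have b4 : κ₀ * (N + X * r) ≤ κ₀ * (1 + X) * (r + N) := by
    rw [mul_assoc]
    apply mul_le_mul_of_nonneg_left _ hκ0.le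
    nlinarith [mul_nonneg hX0.le hz0]
  have b5 : 0 ≤ ((2 * X + 1 + X) + 2 / κ₀) * (r + N) := by positivity
  have b6 : Cb s X μ κ₀ ε * (r + N) = (2 + s) * X * (r + N) + μ * (1 + X) * (r + N) +
      2 * (ε * Ce * (1 + X)) * (r + N) + κ₀ * (1 + X) * (r + N) +
      ((2 * X + 1 + X) + 2 / κ₀) * (r + N) := by
    unfold Cb; ring
  rw [b6]
  linarith

theorem dW_norm (K : Cst s X q μ lam κ₀ ε τ σ') (hr : 0 < r) (hw1 : q * r ≤ w₁.im)
    (hw2 : w₁.im ≤ X * r) {u : ℝ} (hw3 : |w₁.re - u| ≤ X * r) {z : ℂ} (hz : 0 ≤ z.im) :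
    ‖dW ε r (lam * w₁.im) w₁ z - u‖ ≤ Cb s X μ κ₀ ε * (r + ‖z‖) := by
  have hs0 := K.s0
  have hX0 := K.X0
  have hμ0 := K.μ0
  have hκ0 := K.κ0
  have hε0 := K.ε0
  have hCe := Ce_pos
  have hqr : 0 < q * r := mul_pos K.q0 hr
  have hw0 : 0 < w₁.im := by linarith
  have hη0 : 0 < lam * w₁.im := mul_pos (by linarith [K.l0]) hw0
  have hη : lam * w₁.im ≤ X * r := by
    have := mul_le_mul_of_nonneg_right K.l1 hw0.le
    linarith
  set η := lam * w₁.im with hηd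
  have hηn : ‖(η : ℂ) * I‖ = η := by
    rw [norm_mul, Complex.norm_I, mul_one, Complex.norm_real, Real.norm_eq_abs, abs_of_pos hη0]
  obtain ⟨g1, g2, g3⟩ := gp_bound hε0 hr hz
  have gη := gη_bound K hr hη0 hη
  have hz0 := norm_nonneg z
  have e1 : dW ε r η w₁ z - u = (w₁ - u) + (z - η * I) + I * (gp ε r z - gp ε r (η * I)) := by
    unfold dW; ring
  rw [e1]
  have a1 : ‖w₁ - u‖ ≤ 2 * X * r := by
    have h1 := Complex.norm_le_abs_re_add_abs_im (w₁ - u)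
    simp only [sub_re, ofReal_re, sub_im, ofReal_im, sub_zero] at h1
    rw [abs_of_pos hw0] at h1
    linarith
  have a2 : ‖z - η * I‖ ≤ ‖z‖ + X * r := by
    refine (norm_sub_le _ _).trans ?_
    rw [hηn]
    linarith
  have a3 : ‖I * (gp ε r z - gp ε r (η * I))‖ ≤ ε * Ce * (r + ‖z‖) + ε * Ce * (1 + X) * r := by
    rw [norm_mul, Complex.norm_I, one_mul]
    exact (norm_sub_le _ _).trans (add_le_add g3 gη)
  have a5 := norm_add_le ((w₁ - u) + (z - η * I)) (I * (gp ε r z - gp ε r (η * I)))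
  have a6 := norm_add_le (w₁ - u : ℂ) (z - η * I)
  set N := ‖z‖ with hN
  have b1 : 2 * X * r + (N + X * r) ≤ (2 * X + 1 + X) * (r + N) := by
    nlinarith [mul_nonneg hX0.le hz0]
  have b3 : ε * Ce * (r + N) + ε * Ce * (1 + X) * r ≤ 2 * (ε * Ce * (1 + X)) * (r + N) := by
    have p1 : 0 < ε * Ce := by positivity
    have p2 : ε * Ce * (r + N) ≤ ε * Ce * (1 + X) * (r + N) := by
      apply mul_le_mul_of_nonneg_right _ (by positivity)
      nlinarith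
    have p3 : ε * Ce * (1 + X) * r ≤ ε * Ce * (1 + X) * (r + N) :=
      mul_le_mul_of_nonneg_left (by linarith) (by positivity)
    linarith
  have b5 : 0 ≤ ((2 + s) * X + μ * (1 + X) + κ₀ * (1 + X) + 2 / κ₀) * (r + N) := by positivity
  have b6 : Cb s X μ κ₀ ε * (r + N) = 2 * (ε * Ce * (1 + X)) * (r + N) +
      (2 * X + 1 + X) * (r + N) +
      ((2 + s) * X + μ * (1 + X) + κ₀ * (1 + X) + 2 / κ₀) * (r + N) := by
    unfold Cb; ring
  rw [b6]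
  linarith

end

/-- **the explicit disc** through the target `(s₁, w₁)` at the scale `r`, over the real centre
`(y, u)`, in straight coordinates, on the closed half disc `‖z‖ ≤ ρ₁`, `0 ≤ Im z` -/
structure Dsc (σ' ε C τ ρ₁ r y u : ℝ) (s₁ w₁ : ℂ) (S W : ℂ → ℂ) (η : ℝ) : Prop where
  dS : DifferentiableOn ℂ S {z | -r < z.im}
  dW : DifferentiableOn ℂ W {z | -r < z.im}
  η0 : 0 < η
  ηl : w₁.im / 2 ≤ η
  ηr : η ≤ w₁.im
  hS : S (η * I) = s₁
  hW : W (η * I) = w₁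
  W0 : ∀ z : ℂ, 0 ≤ z.im → z.im + pf ε r z / 2 ≤ (W z).im
  SW : ∀ z : ℂ, 0 ≤ z.im → ‖z‖ ≤ ρ₁ → (S z).im ≤ σ' * (W z).im
  bS : ∀ z : ℂ, 0 ≤ z.im → ‖z‖ ≤ ρ₁ → ‖S z - y‖ ≤ C * (r + ‖z‖)
  bW : ∀ z : ℂ, 0 ≤ z.im → ‖z‖ ≤ ρ₁ → ‖W z - u‖ ≤ C * (r + ‖z‖)
  lat : ∀ z : ℂ, 0 ≤ z.im → ‖z‖ ≤ ρ₁ → (z.im = 0 ∨ ‖z‖ = ρ₁ ∧ z.im ≤ τ * ρ₁) →
    (S z).im ≤ -(pf ε r z / 2)
  arc : ∀ z : ℂ, 0 ≤ z.im → ‖z‖ = ρ₁ → z.im ≤ τ * ρ₁ → (S z).im ≤ -(ρ₁ / C)

theorem exists_disc {σ s X q : ℝ} (hs : 0 ≤ s) (hsσ : s < σ) (hq : 0 < q) (hqX : q ≤ X) :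
    ∃ σ' ε C τ : ℝ, s < σ' ∧ σ' < σ ∧ 0 < ε ∧ 0 < C ∧ 0 < τ ∧ ∀ ρ₁ r y u : ℝ, 0 < r →
      X * r < ρ₁ → ∀ s₁ w₁ : ℂ, q * r ≤ w₁.im → w₁.im ≤ X * r → |w₁.re - u| ≤ X * r →
        |s₁.re - y| ≤ X * r → -(X * r) ≤ s₁.im → s₁.im ≤ s * w₁.im →
        ∃ (S W : ℂ → ℂ) (η : ℝ), Dsc σ' ε C τ ρ₁ r y u s₁ w₁ S W η := by
  obtain ⟨G, hG⟩ : ∃ G, G = σ - s := ⟨_, rfl⟩
  have hG0 : 0 < G := by linarith
  have hσ0 : 0 < σ := by linarith
  have hX0 : 0 < X := by linarith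
  obtain ⟨μ, hμ⟩ : ∃ μ, μ = σ - G / 4 := ⟨_, rfl⟩
  have hμ0 : 0 < μ := by linarith
  obtain ⟨lam, hlam⟩ : ∃ lam, lam = 1 - G / (4 * σ) := ⟨_, rfl⟩
  have hdiv : G / (4 * σ) ≤ 1 / 4 := by
    rw [div_le_iff₀ (by positivity)]; linarith
  have hdiv0 : 0 < G / (4 * σ) := by positivity
  have hμlam : s + G / 2 ≤ μ * lam := by
    have e1 : μ * lam = μ - μ * (G / (4 * σ)) := by rw [hlam]; ring
    have e2 : μ * (G / (4 * σ)) ≤ σ * (G / (4 * σ)) :=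
      mul_le_mul_of_nonneg_right (by linarith) hdiv0.le
    have e3 : σ * (G / (4 * σ)) = G / 4 := by field_simp
    rw [e1]
    linarith
  obtain ⟨κ₀, hκ₀⟩ : ∃ κ₀, κ₀ = G / 8 := ⟨_, rfl⟩
  have hκ0 : 0 < κ₀ := by rw [hκ₀]; positivity
  have hCe := Ce_pos
  obtain ⟨ε, hε⟩ : ∃ ε, ε = min (G / (4 * σ)) (G / 4) * q / (Ce * (1 + X)) := ⟨_, rfl⟩
  have hmin : 0 < min (G / (4 * σ)) (G / 4) := lt_min hdiv0 (by positivity)
  have hε0 : 0 < ε := by rw [hε]; positivity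
  have hεe : ε * Ce * (1 + X) = min (G / (4 * σ)) (G / 4) * q := by
    rw [hε]; field_simp
  obtain ⟨τ, hτ⟩ : ∃ τ, τ = κ₀ / (2 * (μ + 2 * κ₀)) := ⟨_, rfl⟩
  have hτ0 : 0 < τ := by rw [hτ]; positivity
  have K : Cst s X q μ lam κ₀ ε τ (σ - G / 8) := by
    refine ⟨hs, hX0, hq, hμ0, hκ0, hε0, hτ0, by linarith, by linarith, ?_, ?_, by linarith, ?_,
      by linarith⟩
    · rw [hεe]
      apply mul_le_mul_of_nonneg_right _ hq.le
      have := min_le_left (G / (4 * σ)) (G / 4)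
      linarith
    · rw [hεe]
      apply mul_le_mul_of_nonneg_right _ hq.le
      have := min_le_right (G / (4 * σ)) (G / 4)
      linarith
    · rw [hτ]
      apply le_of_eq
      field_simp
  refine ⟨σ - G / 8, ε, Cb s X μ κ₀ ε, τ, by linarith, by linarith, hε0, ?_, hτ0, ?_⟩
  · unfold Cb; positivity
  intro ρ₁ r y u hr hρ s₁ w₁ hw1 hw2 hw3 hs1 hs2 hs3
  have hqr : 0 < q * r := by positivity
  have hw0 : 0 < w₁.im := by linarith
  have hXr : 0 < X * r := by positivity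
  have hρ0 : 0 < ρ₁ := by linarith
  have hη0 : 0 < lam * w₁.im := mul_pos (by linarith) hw0
  obtain ⟨κ, hκ⟩ : ∃ κ, κ = κ₀ / ρ₁ := ⟨_, rfl⟩
  have hκp : 0 < κ := by rw [hκ]; positivity
  have hκρ : κ * ρ₁ = κ₀ := by rw [hκ]; field_simp
  have hdom : {z : ℂ | -r < z.im} ⊆ {z : ℂ | -(Ce - 1) * r < z.im} := by
    intro z hz
    have hz' : -r < z.im := hz
    show -(Ce - 1) * r < z.im
    have : 1 < Ce - 1 := by
      have := Real.add_one_le_exp 2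
      unfold Ce
      linarith [Real.add_one_lt_exp (show (2 : ℝ) ≠ 0 by norm_num)]
    nlinarith
  have hgd : DifferentiableOn ℂ (gp ε r) {z | -r < z.im} := (gp_diff hr).mono hdom
  refine ⟨dS μ κ ε r (lam * w₁.im) s₁, dW ε r (lam * w₁.im) w₁, lam * w₁.im, ?_, ?_, hη0, ?_, ?_,
    ?_, ?_, ?_, ?_, ?_, ?_, ?_, ?_⟩
  · unfold dS
    have h1 : DifferentiableOn ℂ (fun z : ℂ => s₁ + μ * (z - ((lam * w₁.im : ℝ) : ℂ) * I))
      {z | -r < z.im} := by fun_prop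
    have h2 : DifferentiableOn ℂ (fun z : ℂ => I * (κ * (z ^ 2 + ((lam * w₁.im : ℝ) : ℂ) ^ 2)))
      {z | -r < z.im} := by fun_prop
    exact (h1.sub ((hgd.sub (differentiableOn_const _)).const_mul I)).sub h2
  · unfold dW
    have h1 : DifferentiableOn ℂ (fun z : ℂ => w₁ + (z - ((lam * w₁.im : ℝ) : ℂ) * I))
      {z | -r < z.im} := by fun_prop
    exact h1.add ((hgd.sub (differentiableOn_const _)).const_mul I)
  · have : 1 / 2 * w₁.im ≤ lam * w₁.im := mul_le_mul_of_nonneg_right K.l0 hw0.le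
    linarith
  · have : lam * w₁.im ≤ 1 * w₁.im := mul_le_mul_of_nonneg_right K.l1 hw0.le
    linarith
  · unfold dS
    have e1 : (((lam * w₁.im : ℝ) : ℂ) * I) ^ 2 + ((lam * w₁.im : ℝ) : ℂ) ^ 2 = 0 := by
      rw [mul_pow, Complex.I_sq]; ring
    rw [e1]
    ring
  · unfold dW
    ring
  · intro z hz
    obtain ⟨g1, g2, g3⟩ := gp_bound hε0 hr hz
    have := dW_low K hr hw1 hw2 (z := z)
    linarith
  · intro z hz hzρ
    obtain ⟨g1, g2, g3⟩ := gp_bound hε0 hr hz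
    have e1 := dS_up K hr hw1 hw2 hs3 hκp (z := z)
    have e2 := sq_small hκp.le hκρ hz hzρ
    have e3 : 0 ≤ κ * z.re ^ 2 := by positivity
    have e4 := dW_low K hr hw1 hw2 (z := z)
    have e5 : 0 ≤ σ - G / 8 := by linarith
    have e8 : z.im ≤ (dW ε r (lam * w₁.im) w₁ z).im := by linarith
    have e6 := mul_le_mul_of_nonneg_left e8 e5
    have e7 : μ * z.im + κ₀ * z.im = (σ - G / 8) * z.im := by rw [hμ, hκ₀]; ring
    linarith
  · intro z hz hzρ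
    exact dS_norm K hr hw1 hw2 hs1 hs2 hs3 hκp hκρ hρ hz hzρ
  · intro z hz hzρ
    exact dW_norm K hr hw1 hw2 hw3 hz
  · intro z hz hzρ h
    obtain ⟨g1, g2, g3⟩ := gp_bound hε0 hr hz
    have e1 := dS_up K hr hw1 hw2 hs3 hκp (z := z)
    rcases h with h | ⟨h2, h3⟩
    · rw [h] at e1
      have e3 : 0 ≤ κ * z.re ^ 2 := by positivity
      simp only [mul_zero, ne_eq, OfNat.ofNat_ne_zero, not_false_eq_true, zero_pow] at e1
      linarith
    · have e2 := arc_est K hρ0 hκp.le hκρ hz h2 h3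
      have e3 : 0 ≤ κ₀ * ρ₁ / 2 := by positivity
      linarith
  · intro z hz h2 h3
    obtain ⟨g1, g2, g3⟩ := gp_bound hε0 hr hz
    have e1 := dS_up K hr hw1 hw2 hs3 hκp (z := z)
    have e2 := arc_est K hρ0 hκp.le hκρ hz h2 h3
    have hC0 : 0 < Cb s X μ κ₀ ε := by unfold Cb; positivity
    have e3 : ρ₁ / Cb s X μ κ₀ ε ≤ κ₀ * ρ₁ / 2 := by
      have e4 : 2 / κ₀ ≤ Cb s X μ κ₀ ε := by
        unfold Cb
        have : 0 ≤ (2 + s) * X + μ * (1 + X) + 2 * (ε * Ce * (1 + X)) + κ₀ * (1 + X) +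
          (2 * X + 1 + X) := by positivity
        linarith
      rw [div_le_iff₀ hC0]
      have e6 : 2 / κ₀ * (κ₀ * ρ₁ / 2) ≤ Cb s X μ κ₀ ε * (κ₀ * ρ₁ / 2) :=
        mul_le_mul_of_nonneg_right e4 (by positivity)
      have e7 : 2 / κ₀ * (κ₀ * ρ₁ / 2) = ρ₁ := by field_simp
      linarith
    linarith

end Vale.Agent.P097.H282
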