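import Vale.Agent.P097.H929.Thin2

/-!
# P097 / case [c] (helper282): the wide tube over ALL real centres

Straightening `t = s + Ψ w`.  In the coordinates `(s, w)` the comparison function of every real
centre is `0`; one window over one label gives the flat tube over a real neighbourhood.
-/

set_option linter.all false

open scoped ComplexConjugate Topology
open Filter Metric Set Complex

namespace Vale.Agent.P097.H282

open Vale.Agent.P097.TA Vale.Agent.P097.H543 Vale.Agent.P097.H85 Vale.Agent.P097.H929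

/-- the straightened domain over the open set `V` of labels, above the level `b'` -/
def Sd (M : Set (ℂ × ℂ)) (Ψ : ℂ → ℂ) (V : Set ℂ) (b' : ℝ) : Set (ℂ × ℂ) :=
  {z | z.2 ∈ V ∧ b' < z.1.im ∧ (z.1 + Ψ z.2, z.2) ∈ M}

/-- the straightened domain has the rectangle Hartogs property -/
theorem rh_Sd {M : Set (ℂ × ℂ)} {b m : ℝ} {Ψ : ℂ → ℂ} {V : Set ℂ} (hM : RH b M) (hV : IsOpen V)
    (hΨ : DifferentiableOn ℂ Ψ V) (hm : ∀ w ∈ V, m ≤ (Ψ w).im) {b' : ℝ} (hb' : b - m ≤ b') :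
    RH b' (Sd M Ψ V b') := by
  refine ⟨⟨?_, fun t w h => h.2.1, ?_⟩, ?_⟩
  · rw [isOpen_iff_mem_nhds]
    rintro ⟨s, w⟩ ⟨h1, h2, h3⟩
    simp only at h1 h2 h3
    have e1 : ∀ᶠ z : ℂ × ℂ in 𝓝 (s, w), z.2 ∈ V :=
      continuousAt_snd.eventually (hV.mem_nhds h1)
    have e2 : ∀ᶠ z : ℂ × ℂ in 𝓝 (s, w), b' < z.1.im :=
      (Complex.continuous_im.continuousAt.comp continuousAt_fst).eventually (lt_mem_nhds h2)
    have hc : ContinuousAt (fun z : ℂ × ℂ => (z.1 + Ψ z.2, z.2)) (s, w) := by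
      have h4 : ContinuousAt Ψ w := (hΨ.differentiableAt (hV.mem_nhds h1)).continuousAt
      have h5 : ContinuousAt (fun z : ℂ × ℂ => Ψ z.2) (s, w) :=
        ContinuousAt.comp (f := fun z : ℂ × ℂ => z.2) h4 continuousAt_snd
      exact (continuousAt_fst.add h5).prodMk continuousAt_snd
    have e3 : ∀ᶠ z : ℂ × ℂ in 𝓝 (s, w), (z.1 + Ψ z.2, z.2) ∈ M :=
      hc.eventually (hM.dn.op.mem_nhds h3)
    filter_upwards [e1, e2, e3] with z a1 a2 a3
    exact ⟨a1, a2, a3⟩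
  · intro s w x h hx hxs
    obtain ⟨h1, h2, h3⟩ := h
    simp only at h1 h2 h3
    refine ⟨h1, by simpa using hx, ?_⟩
    have h4 := hM.dn.down _ _ (x + (Ψ w).im) h3 (by linarith [hm w h1])
      (by rw [add_im]; linarith)
    have h5 : ((((s + Ψ w).re : ℝ) : ℂ) + ((x + (Ψ w).im : ℝ) : ℂ) * I) =
        ((s.re : ℂ) + x * I) + Ψ w := by
      apply Complex.ext <;> simp
    rw [h5] at h4
    exact h4
  · intro φ U x₀ x₁ y₀ y₁ α a β hU hφ hR hβ h1 h2 ζ hζ1 hζ2 hζ3 w hw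
    have hwc : w ∈ Rc x₀ x₁ y₀ y₁ := Ro_sub _ _ _ _ hw
    -- a point of the range of `ζ` in the lower part
    have hpt : ∀ x : ℝ, -β < x → x ≤ -β / 2 → ∀ z ∈ Rc x₀ x₁ y₀ y₁,
        ((ζ.re : ℂ) + x * I + φ z, z) ∈ Sd M Ψ V b' := by
      intro x hx1 hx2 z hz
      exact h2 ((ζ.re : ℂ) + x * I) (by simpa using hζ1) (by simpa using hx1)
        (by simpa using hx2) z hz
    have hRV : Rc x₀ x₁ y₀ y₁ ⊆ V := fun z hz =>
      (hpt (-β / 2) (by linarith) le_rfl z hz).1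
    have hlow : ∀ z ∈ Rc x₀ x₁ y₀ y₁, b' ≤ -β + (φ z).im := by
      intro z hz
      by_contra hcon
      push Not at hcon
      obtain ⟨x, hx1, hx2⟩ := exists_between (show -β < min (-β / 2) (b' - (φ z).im) from
        lt_min (by linarith) (by linarith))
      have h3 := (hpt x hx1 (hx2.le.trans (min_le_left _ _)) z hz).2.1
      have h4 := hx2.le.trans (min_le_right _ _)
      simp at h3
      linarith
    have key := hM.har (fun z => φ z + Ψ z) (U ∩ V) x₀ x₁ y₀ y₁ α a β (hU.inter hV)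
      ((hφ.mono inter_subset_left).add (hΨ.mono inter_subset_right))
      (fun z hz => ⟨hR hz, hRV hz⟩) hβ
      (fun ζ a1 a2 a3 z a4 a5 => by
        have := (h1 ζ a1 a2 a3 z a4 a5).2.2
        simpa [add_assoc] using this)
      (fun ζ a1 a2 a3 z a4 => by
        have := (h2 ζ a1 a2 a3 z a4).2.2
        simpa [add_assoc] using this) ζ hζ1 hζ2 hζ3 w hw
    refine ⟨hRV hwc, ?_, by simpa [add_assoc] using key⟩
    show b' < (ζ + φ w).im
    rw [add_im]
    linarith [hlow w hwc]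

/-- the comparison function `0` at a real centre of the straightened domain -/
theorem cmp_Sd {M : Set (ℂ × ℂ)} {b m : ℝ} {Ψ : ℂ → ℂ} {V : Set ℂ} {b' : ℝ}
    (hm : ∀ w ∈ V, m ≤ (Ψ w).im) (hb' : b - m ≤ b')
    (hbase : ∀ t w : ℂ, w ∈ V → b < t.im → t.im < (Ψ w).im → (t, w) ∈ M) {u' ρ : ℝ}
    (hρ : {w : ℂ | |w.re - u'| < ρ ∧ 0 < w.im ∧ w.im < ρ} ⊆ V) (c₀ : ℝ) :
    Cmp (Sd M Ψ V b') b' 0 (fun _ => 0) u' ρ 0 0 0 c₀ 0 := by
  refine ⟨differentiableOn_const _, fun w _ _ _ => by simp, ?_, fun w _ _ _ _ => by simp⟩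
  intro t w h1 h2 h3 h4 h5
  have hw : w ∈ V := hρ ⟨h1, h2, h3⟩
  refine ⟨hw, h4, hbase _ _ hw ?_ ?_⟩
  · show b < (t + Ψ w).im
    rw [add_im]
    linarith [hm w hw]
  · show (t + Ψ w).im < (Ψ w).im
    rw [add_im]
    have : t.im < 0 := by simpa using h5
    linarith

/-- **one straight window gives the flat tube** -/
theorem flat_tube {N : Set (ℂ × ℂ)} {b' : ℝ} {u ρ : ℝ} (hN : RH b' N) (hb' : b' < 0)
    (hbase : ∀ t w : ℂ, |w.re - u| < ρ → 0 < w.im → w.im < ρ → b' < t.im → t.im < 0 → (t, w) ∈ N)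
    {c₀ Λ σ δ y r : ℝ} (hδ : 0 < δ) (hc₀ : 0 < c₀) (hc1 : c₀ ≤ 1 / 2)
    (hs : |σ - 3 * δ| * c₀ ≤ δ) (hΛ : 1 + |σ - 3 * δ| + 4 * δ ≤ Λ) (hΛc : c₀ * Λ ≤ 1 / 2)
    (hr : 0 < r) (hrρ : 2 * r < ρ) (hr1 : (|σ - 3 * δ| + 2 * δ) * r ≤ -b' / 16)
    (hwin : ∀ t w : ℂ, |w.re - u| ≤ 2 * r → c₀ * r ≤ w.im → w.im ≤ r → |t.re - y| ≤ Λ * r →
      b' < t.im → t.im ≤ σ * w.im → (t, w) ∈ N) :
    ∀ t w : ℂ, |w.re - u| ≤ r → 0 < w.im → w.im ≤ c₀ * r / 4 → |t.re - y| ≤ r / 2 → b' < t.im →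
      t.im ≤ (σ - 4 * δ) * w.im → (t, w) ∈ N := by
  intro t w h1 h2 h3 h4 h5 h6
  have hC : Cmp N b' 0 (fun _ => 0) w.re (ρ - r) 0 0 0 c₀ 0 := by
    refine ⟨differentiableOn_const _, fun w _ _ _ => by simp, ?_, fun w _ _ _ _ => by simp⟩
    intro t' w' a1 a2 a3 a4 a5
    refine hbase t' w' ?_ a2 (by linarith) a4 (by simpa using a5)
    have := abs_sub_le w'.re w.re u
    linarith
  have hp := prop_window (y := y) (y' := t.re) (r' := w.im) hN hC (s₁ := σ - 3 * δ) (δ := δ)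
    (Λ := Λ) hb' hδ hc₀ hc1 le_rfl (by simp; positivity) hs (by simp only [abs_zero]; linarith)
    hΛc hr (by linarith) (by linarith) ?_ h4 h2 (by linarith)
  · apply hp
    refine ⟨?_, ?_, le_rfl, ?_, h5, ?_⟩
    · simp only [sub_self, abs_zero]; exact h2.le
    · simp only
      have : c₀ * w.im ≤ 1 * w.im := mul_le_mul_of_nonneg_right (by linarith) h2.le
      linarith
    · simp only [sub_self, abs_zero]
      have : 0 ≤ Λ := by
        have := abs_nonneg (σ - 3 * δ)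
        linarith
      positivity
    · simp only [zero_im, zero_mul, zero_add]
      have e1 : σ - 3 * δ - δ = σ - 4 * δ := by ring
      rw [e1]
      exact h6
  · rintro ⟨t', w'⟩ ⟨a1, a2, a3, a4, a5, a6⟩
    simp only at a1 a2 a3 a4 a5 a6
    refine hwin t' w' ?_ a2 a3 a4 a5 ?_
    · have := abs_sub_le w'.re w.re u
      linarith
    · simp only [zero_im, zero_mul, zero_add] at a6
      have e1 : σ - 3 * δ + 3 * δ = σ := by ring
      rw [e1] at a6
      exact a6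

/-- **TUBE** : windows at one label `u0` of `A` give the flat tube over ALL real labels near `u0` -/
theorem tube {M : Set (ℂ × ℂ)} {b m : ℝ} {Ψ : ℂ → ℂ} {A : Set ℝ} {P : ℝ → ℂ} {c k : ℝ → ℝ}
    (hM : RH b M) (hU : CmpU M b m Ψ A P c k) (hbm : b < m) {y0 u0 s : ℝ} (hu : u0 ∈ A)
    (h : RegB M b A P c y0 u0 s) {σ : ℝ} (hσ : σ < s - k u0) :
    ∃ d > 0, ∀ t w : ℂ, |w.re - u0| < d → 0 < w.im → w.im < d →
      |(t - Ψ w).re - (y0 - (P u0).re)| < d → b < t.im → (t - Ψ w).im < σ * w.im → (t, w) ∈ M := by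
  set δ : ℝ := (s - k u0 - σ) / 8 with hδd
  have hδ : 0 < δ := by rw [hδd]; linarith
  set σ₁ : ℝ := σ + 4 * δ with hσ₁
  set Λ : ℝ := 1 + |σ₁ - 3 * δ| + 4 * δ with hΛd
  have hab : 0 ≤ |σ₁ - 3 * δ| := abs_nonneg _
  have hΛ0 : 0 < Λ := by rw [hΛd]; linarith
  set c₀ : ℝ := min (1 / 2) (min (δ / (1 + |σ₁ - 3 * δ|)) (1 / (2 * Λ))) with hc₀d
  have hc₀ : 0 < c₀ := by
    apply lt_min (by norm_num) (lt_min (by positivity) (by positivity))
  have hc1 : c₀ ≤ 1 / 2 := min_le_left _ _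
  have hc2 : |σ₁ - 3 * δ| * c₀ ≤ δ := by
    have e1 : c₀ ≤ δ / (1 + |σ₁ - 3 * δ|) := (min_le_right _ _).trans (min_le_left _ _)
    have e2 : (1 + |σ₁ - 3 * δ|) * c₀ ≤ δ := by
      rw [le_div_iff₀ (by linarith)] at e1
      linarith
    nlinarith
  have hc3 : c₀ * Λ ≤ 1 / 2 := by
    have e1 : c₀ ≤ 1 / (2 * Λ) := (min_le_right _ _).trans (min_le_right _ _)
    rw [le_div_iff₀ (by linarith)] at e1
    linarith
  obtain ⟨ρ, hρ, hcmp⟩ := hU.cmp (c₀ / 2) (by linarith) (δ * c₀) (by positivity)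
  have hC := hcmp u0 hu
  obtain ⟨d₀, hd₀, h2⟩ := h
  set Λ₂ : ℝ := Λ / 2 + |c u0| + |k u0| + 2 * (δ * c₀) with hΛ₂
  obtain ⟨r₀, hr₀, h3⟩ := h2 (c₀ / 2) (by linarith) Λ₂
  set V : Set ℂ := {w : ℂ | |w.re - u0| < ρ ∧ 0 < w.im ∧ w.im < ρ} with hV
  set b' : ℝ := (b - m) / 2 with hb'
  have hb'0 : b' < 0 := by rw [hb']; linarith
  have hb'1 : b - m ≤ b' := by rw [hb']; linarith
  have hmV : ∀ w ∈ V, m ≤ (Ψ w).im := fun w hw => hC.bdd w hw.1 hw.2.1 hw.2.2
  have hbV : ∀ t w : ℂ, w ∈ V → b < t.im → t.im < (Ψ w).im → (t, w) ∈ M :=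
    fun t w hw h1 h2 => hC.base t w hw.1 hw.2.1 hw.2.2 h1 h2
  have hN : RH b' (Sd M Ψ V b') := rh_Sd hM (isOpen_box u0 ρ) hC.hol hmV hb'1
  have hbN : ∀ t w : ℂ, |w.re - u0| < ρ → 0 < w.im → w.im < ρ → b' < t.im → t.im < 0 →
      (t, w) ∈ Sd M Ψ V b' := by
    intro t w a1 a2 a3 a4 a5
    have hw : w ∈ V := ⟨a1, a2, a3⟩
    refine ⟨hw, a4, hbV _ _ hw ?_ ?_⟩
    · show b < (t + Ψ w).im
      rw [add_im]
      linarith [hmV w hw]
    · show (t + Ψ w).im < (Ψ w).im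
      rw [add_im]
      linarith
  set r : ℝ := min (min (r₀ / 4) (ρ / 4)) (-b' / (16 * (|σ₁ - 3 * δ| + 2 * δ))) with hr
  have hr0 : 0 < r := by
    apply lt_min (lt_min (by positivity) (by positivity))
    apply div_pos (by linarith) (by positivity)
  have hrr₀ : 2 * r < r₀ := by
    have : r ≤ r₀ / 4 := (min_le_left _ _).trans (min_le_left _ _)
    linarith
  have hrρ : 2 * r < ρ := by
    have : r ≤ ρ / 4 := (min_le_left _ _).trans (min_le_right _ _)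
    linarith
  have hr1 : (|σ₁ - 3 * δ| + 2 * δ) * r ≤ -b' / 16 := by
    have e1 : r ≤ -b' / (16 * (|σ₁ - 3 * δ| + 2 * δ)) := min_le_right _ _
    rw [le_div_iff₀ (by positivity)] at e1
    linarith
  have key := flat_tube (y := y0 - (P u0).re) (σ := σ₁) hN hb'0 hbN hδ hc₀ hc1 hc2 le_rfl hc3 hr0
    hrρ hr1 ?_
  · refine ⟨min (r / 2) (c₀ * r / 4), by positivity, ?_⟩
    intro t w a1 a2 a3 a4 a5 a6
    have a3' := a3.trans_le (min_le_right _ _)
    have a3'' := a3.trans_le (min_le_left _ _)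
    have a1' := a1.trans_le (min_le_left _ _)
    have a4' := a4.trans_le (min_le_left _ _)
    have hw : w ∈ V := ⟨by linarith, a2, by linarith⟩
    by_cases hlow : b' < (t - Ψ w).im
    · have h5 := key (t - Ψ w) w (by linarith) a2 a3'.le a4'.le hlow
        (by rw [hσ₁]; ring_nf; ring_nf at a6; linarith)
      have h6 := h5.2.2
      simpa using h6
    · push Not at hlow
      rw [sub_im] at hlow
      exact hbV t w hw a5 (by linarith)
  · intro t w a1 a2 a3 a4 a5 a6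
    have a2' : 0 < w.im := lt_of_lt_of_le (by positivity) a2
    have hw : w ∈ V := ⟨by linarith, a2', by linarith⟩
    refine ⟨hw, a5, ?_⟩
    have hnt : c₀ / 2 * |w.re - u0| ≤ w.im := by
      have := mul_le_mul_of_nonneg_left a1 (by positivity : 0 ≤ c₀ / 2)
      linarith
    obtain ⟨n1, n2⟩ := hC.re_im (by positivity) (r := 2 * r) (by linarith) a2' (by linarith) hnt
      a1 (by linarith)
    have hin := h3 u0 hu (by simpa using hd₀) y0 (by simpa using hd₀) (2 * r) (by linarith) hrr₀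
    apply hin
    refine ⟨a1, ?_, ?_, ?_, ?_, ?_⟩
    · show c₀ / 2 * (2 * r) ≤ w.im
      linarith
    · show w.im ≤ 2 * r
      linarith
    · show |(t + Ψ w).re - y0| ≤ Λ₂ * (2 * r)
      have e1 : (t + Ψ w).re - y0 = (t.re - (y0 - (P u0).re)) + ((Ψ w).re - (P u0).re) := by
        rw [add_re]; ring
      rw [e1]
      have e2 := abs_add_le (t.re - (y0 - (P u0).re)) ((Ψ w).re - (P u0).re)
      rw [hΛ₂]
      nlinarith
    · show b < (t + Ψ w).im
      rw [add_im]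
      linarith [hmV w hw]
    · show (t + Ψ w).im ≤ (P u0).im + c u0 * (w.re - u0) + s * w.im
      rw [add_im]
      have e1 := (abs_le.1 n2).2
      have e2 : 2 * (δ * c₀) * (2 * r) ≤ 4 * δ * w.im := by
        have := mul_le_mul_of_nonneg_left a2 (by positivity : 0 ≤ 4 * δ)
        linarith
      have e3 : s * w.im = (σ₁ + k u0 + 4 * δ) * w.im := by
        congr 1
        rw [hσ₁, hδd]; ring
      rw [e3]
      linarith

end Vale.Agent.P097.H282
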